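import Mathlib

/-!
# P267, LINE X of the endgame: flat convexity (GX-LEAF), part 1

A leaf with a flat structure (up to unimodular constants), given by local exponential maps
`F x : ball 0 δ → S`, a closed piece `L` of it with boundary `B` which is strictly convex.
Flat maps from open subsets of `ℂ`, uniqueness, uniform flatness.
-/

open Set Filter Metric
open scoped Topology ComplexConjugate

noncomputable section

namespace Vale.Agent.P267.H770

/-- Local data of a piece `L` of a flat leaf with strictly convex boundary `B`. `F x` is the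
exponential map at `x`, defined on the ball of radius `δ`; it is determined up to a unimodular
constant. -/
structure Flat (S : Type*) [TopologicalSpace S] where
  /-- exponential maps -/
  F : S → ℂ → S
  /-- the piece -/
  L : Set S
  /-- its boundary -/
  B : Set S
  /-- uniform radius -/
  δ : ℝ
  δ_pos : 0 < δ
  B_sub : B ⊆ L
  F_zero : ∀ x ∈ L, F x 0 = x
  F_cont : ∀ x ∈ L, ContinuousOn (F x) (ball 0 δ)
  compat : ∀ x ∈ L, ∀ a, ‖a‖ < δ → F x a ∈ L → ∃ c : ℂ, ‖c‖ = 1 ∧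
    ∀ b, ‖b‖ < δ → ‖a + c * b‖ < δ → F (F x a) b = F x (a + c * b)
  inj : ∀ x ∈ L, ∃ ε > 0, InjOn (F x) (ball 0 ε)
  closed : ∀ x ∈ L, ∀ a, ‖a‖ < δ →
    (∃ u : ℕ → ℂ, Tendsto u atTop (𝓝 a) ∧ ∀ n, F x (u n) ∈ L) → F x a ∈ L
  interior : ∀ x ∈ L, x ∉ B → ∃ ε > 0, ∀ a, ‖a‖ < ε → F x a ∈ L ∧ F x a ∉ B
  convex : ∀ y ∈ B, ∃ n : ℂ, n ≠ 0 ∧ ∀ a, a ≠ 0 → ‖a‖ < δ → 0 ≤ (a * conj n).re → F y a ∉ L

namespace Flat

variable {S : Type*} [TopologicalSpace S] (T : Flat S)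

/-- `σ` is flat at `a` with constant `c` -/
def FlatC (σ : ℂ → S) (a c : ℂ) : Prop :=
  ‖c‖ = 1 ∧ ∃ ε > 0, ∀ b, ‖b‖ < ε → σ (a + b) = T.F (σ a) (c * b)

/-- `σ` is flat at `a` -/
def FlatAt (σ : ℂ → S) (a : ℂ) : Prop := ∃ c, T.FlatC σ a c

variable {T}

theorem FlatC.congr {σ τ : ℂ → S} {a c : ℂ} (h : T.FlatC σ a c) (he : σ =ᶠ[𝓝 a] τ) :
    T.FlatC τ a c := by
  obtain ⟨hc, ε, hε, h⟩ := h
  obtain ⟨ε', hε', he'⟩ := Metric.eventually_nhds_iff.1 he
  refine ⟨hc, min ε ε', lt_min hε hε', fun b hb => ?_⟩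
  have h1 : σ (a + b) = τ (a + b) := he' (by
    rw [dist_eq_norm]; simpa using lt_of_lt_of_le hb (min_le_right _ _))
  have h2 : σ a = τ a := he' (by simpa using hε')
  rw [← h1, ← h2]
  exact h b (lt_of_lt_of_le hb (min_le_left _ _))

theorem FlatAt.congr {σ τ : ℂ → S} {a : ℂ} (h : T.FlatAt σ a) (he : σ =ᶠ[𝓝 a] τ) :
    T.FlatAt τ a := by
  obtain ⟨c, hc⟩ := h
  exact ⟨c, hc.congr he⟩

theorem FlatC.continuousAt {σ : ℂ → S} {a c : ℂ} (h : T.FlatC σ a c) (hL : σ a ∈ T.L) :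
    ContinuousAt σ a := by
  obtain ⟨hc, ε, hε, h⟩ := h
  have h1 : ContinuousAt (fun x : ℂ => T.F (σ a) (c * (x - a))) a := by
    have h2 : ContinuousAt (T.F (σ a)) (c * (a - a)) := by
      have : c * (a - a) = 0 := by simp
      rw [this]
      exact (T.F_cont _ hL).continuousAt (ball_mem_nhds 0 T.δ_pos)
    exact ContinuousAt.comp (f := fun x : ℂ => c * (x - a)) h2 (by fun_prop)
  refine h1.congr ?_
  rw [Filter.EventuallyEq, Metric.eventually_nhds_iff]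
  refine ⟨ε, hε, fun x hx => ?_⟩
  have := h (x - a) (by rwa [← dist_eq_norm])
  rw [← this]; congr 1; ring

theorem FlatAt.continuousAt {σ : ℂ → S} {a : ℂ} (h : T.FlatAt σ a) (hL : σ a ∈ T.L) :
    ContinuousAt σ a := by
  obtain ⟨c, hc⟩ := h
  exact hc.continuousAt hL

variable (T) in
/-- the flat map `x' ↦ F x (c (x' - a))` -/
def ex (x : S) (c a : ℂ) (z : ℂ) : S := T.F x (c * (z - a))

theorem ex_self {x : S} (hx : x ∈ T.L) (c a : ℂ) : T.ex x c a a = x := by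
  simp [ex, T.F_zero x hx]

theorem ex_flat {x : S} (hx : x ∈ T.L) {c a z : ℂ} (hc : ‖c‖ = 1) (hz : ‖z - a‖ < T.δ)
    (hL : T.ex x c a z ∈ T.L) : T.FlatAt (T.ex x c a) z := by
  have h1 : ‖c * (z - a)‖ < T.δ := by rw [norm_mul, hc, one_mul]; exact hz
  obtain ⟨c₁, hc₁, h⟩ := T.compat x hx _ h1 hL
  have hc0 : c₁ ≠ 0 := by
    intro h0; rw [h0, norm_zero] at hc₁; exact zero_ne_one hc₁
  refine ⟨c₁⁻¹ * c, ?_, T.δ - ‖z - a‖, sub_pos.2 hz, fun b hb => ?_⟩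
  · rw [norm_mul, norm_inv, hc₁, hc]; norm_num
  · have hb' : ‖c₁⁻¹ * c * b‖ = ‖b‖ := by
      rw [norm_mul, norm_mul, norm_inv, hc₁, hc]; norm_num
    have h2 := h (c₁⁻¹ * c * b) (by
      rw [hb']
      exact lt_of_lt_of_le hb (by linarith [norm_nonneg (z - a)])) (by
      have : c * (z - a) + c₁ * (c₁⁻¹ * c * b) = c * (z - a + b) := by
        field_simp
      rw [this, norm_mul, hc, one_mul]
      calc ‖z - a + b‖ ≤ ‖z - a‖ + ‖b‖ := norm_add_le _ _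
        _ < T.δ := by linarith)
    simp only [ex] at h2 ⊢
    rw [h2]
    congr 1
    field_simp
    ring

theorem ex_continuousAt {x : S} (hx : x ∈ T.L) {c a z : ℂ} (hc : ‖c‖ = 1) (hz : ‖z - a‖ < T.δ) :
    ContinuousAt (T.ex x c a) z := by
  have h1 : ‖c * (z - a)‖ < T.δ := by rw [norm_mul, hc, one_mul]; exact hz
  have h2 : ContinuousAt (T.F x) (c * (z - a)) :=
    (T.F_cont x hx).continuousAt (isOpen_ball.mem_nhds (by simpa using h1))
  exact ContinuousAt.comp (f := fun z : ℂ => c * (z - a)) h2 (by fun_prop)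

theorem ex_flatC_self {x : S} (hx : x ∈ T.L) {c a : ℂ} (hc : ‖c‖ = 1) :
    T.FlatC (T.ex x c a) a c := by
  refine ⟨hc, 1, one_pos, fun b _ => ?_⟩
  rw [ex_self hx]
  simp [ex]

/-- uniqueness of the constant -/
theorem FlatC.unique {σ τ : ℂ → S} {a c c' : ℂ} (h : T.FlatC σ a c) (h' : T.FlatC τ a c')
    (hL : σ a ∈ T.L) (hστ : σ a = τ a) (hf : ∃ᶠ b in 𝓝[≠] a, σ b = τ b) : c = c' := by
  obtain ⟨hc, ε, hε, h⟩ := h
  obtain ⟨hc', ε', hε', h'⟩ := h'
  obtain ⟨ε'', hε'', hi⟩ := T.inj _ hL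
  have hr : (0 : ℝ) < min ε (min ε' ε'') := lt_min hε (lt_min hε' hε'')
  have h2 : ∀ᶠ b in 𝓝[≠] a, b ∈ ball a (min ε (min ε' ε'')) :=
    mem_nhdsWithin_of_mem_nhds (ball_mem_nhds a hr)
  have h3 : ∀ᶠ b in 𝓝[≠] a, b ≠ a := eventually_mem_nhdsWithin
  obtain ⟨b, hb1, hb2, hb3⟩ := (hf.and_eventually (h2.and h3)).exists
  rw [mem_ball, dist_eq_norm] at hb2
  have e1 := h (b - a) (lt_of_lt_of_le hb2 (min_le_left _ _))
  have e2 := h' (b - a) (lt_of_lt_of_le hb2 ((min_le_right _ _).trans (min_le_left _ _)))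
  rw [add_sub_cancel] at e1 e2
  have hn : ‖b - a‖ < ε'' := lt_of_lt_of_le hb2 ((min_le_right _ _).trans (min_le_right _ _))
  have e3 : T.F (σ a) (c * (b - a)) = T.F (σ a) (c' * (b - a)) := by
    rw [← e1, hb1, e2, hστ]
  have e4 := hi (by simpa [norm_mul, hc] using hn) (by simpa [norm_mul, hc'] using hn) e3
  exact mul_right_cancel₀ (sub_ne_zero.2 hb3) e4

/-- two flat maps which agree frequently near `a` agree near `a` -/
theorem eventuallyEq_of_flat {σ τ : ℂ → S} {a : ℂ} (h : T.FlatAt σ a) (h' : T.FlatAt τ a)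
    (hL : σ a ∈ T.L) (hστ : σ a = τ a) (hf : ∃ᶠ b in 𝓝[≠] a, σ b = τ b) : σ =ᶠ[𝓝 a] τ := by
  obtain ⟨c, h⟩ := h
  obtain ⟨c', h'⟩ := h'
  have hcc := h.unique h' hL hστ hf
  subst hcc
  obtain ⟨hc, ε, hε, h⟩ := h
  obtain ⟨_, ε', hε', h'⟩ := h'
  rw [Filter.EventuallyEq, Metric.eventually_nhds_iff]
  refine ⟨min ε ε', lt_min hε hε', fun x hx => ?_⟩
  rw [dist_eq_norm] at hx
  have e1 := h (x - a) (lt_of_lt_of_le hx (min_le_left _ _))
  have e2 := h' (x - a) (lt_of_lt_of_le hx (min_le_right _ _))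
  rw [add_sub_cancel] at e1 e2
  rw [e1, e2, hστ]

/-- **Identity theorem for flat maps.** -/
theorem eqOn_of_flat [T2Space S] {σ τ : ℂ → S} {W : Set ℂ} (hW : IsOpen W)
    (hc : IsPreconnected W) (hσ : ∀ z ∈ W, σ z ∈ T.L) (hσf : ∀ z ∈ W, T.FlatAt σ z)
    (hτc : ∀ z ∈ W, ContinuousAt τ z) (hτ : ∀ z ∈ W, τ z ∈ T.L → T.FlatAt τ z)
    {z₀ : ℂ} (hz₀ : z₀ ∈ W) (h0 : σ =ᶠ[𝓝 z₀] τ) : EqOn σ τ W := by
  set A : Set ℂ := {z | σ =ᶠ[𝓝 z] τ} with hA
  have hAo : IsOpen A := isOpen_setOf_eventually_nhds (p := fun z => σ z = τ z)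
  have key : W ⊆ A := by
    refine hc.subset_of_closure_inter_subset hAo ⟨z₀, hz₀, h0⟩ ?_
    rintro z ⟨hz, hzW⟩
    -- `z` in the closure of `A`
    by_cases hzA : z ∈ A
    · exact hzA
    have hfr : ∃ᶠ b in 𝓝[≠] z, σ b = τ b := by
      rw [mem_closure_iff_frequently] at hz
      rw [frequently_nhdsWithin_iff]
      refine hz.mono fun b hb => ⟨?_, ?_⟩
      · exact hb.self_of_nhds
      · rintro rfl; exact hzA hb
    have heq : σ z = τ z := by
      have h1 : ContinuousAt σ z := (hσf z hzW).continuousAt (hσ z hzW)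
      have h2 := hτc z hzW
      by_contra hne
      have h3 : ∀ᶠ b in 𝓝 z, σ b ≠ τ b := by
        have := (h1.prodMk h2) 
        have h4 : ∀ᶠ p in 𝓝 (σ z, τ z), p.1 ≠ p.2 :=
          (isClosed_diagonal.isOpen_compl).mem_nhds hne
        exact this.eventually h4
      have h5 : ∃ᶠ b in 𝓝 z, σ b = τ b := hfr.filter_mono nhdsWithin_le_nhds
      exact (h5.and_eventually h3).exists.elim fun b hb => hb.2 hb.1
    exact eventuallyEq_of_flat (hσf z hzW) (hτ z hzW (heq ▸ hσ z hzW)) (hσ z hzW) heq hfr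
  exact fun z hz => (key hz).self_of_nhds

/-- uniform flatness on convex open sets -/
theorem FlatC.uniform [T2Space S] {σ : ℂ → S} {W : Set ℂ} (hW : IsOpen W) (hc : Convex ℝ W)
    (hσ : ∀ z ∈ W, σ z ∈ T.L) (hσf : ∀ z ∈ W, T.FlatAt σ z) {a c : ℂ} (ha : a ∈ W)
    (hac : T.FlatC σ a c) {z : ℂ} (hz : z ∈ W) (hd : ‖z - a‖ < T.δ) :
    σ z = T.ex (σ a) c a z := by
  have h1 : EqOn σ (T.ex (σ a) c a) (W ∩ ball a T.δ) := by
    refine eqOn_of_flat (T := T) (hW.inter isOpen_ball)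
      (hc.inter (convex_ball a T.δ)).isPreconnected
      (fun z hz => hσ z hz.1) (fun z hz => hσf z hz.1) (fun z hz => ?_) (fun z hz hL => ?_)
      (z₀ := a) ⟨ha, mem_ball_self T.δ_pos⟩ ?_
    · exact ex_continuousAt (hσ a ha) hac.1 (by simpa [dist_eq_norm] using hz.2)
    · exact ex_flat (hσ a ha) hac.1 (by simpa [dist_eq_norm] using hz.2) hL
    · obtain ⟨hc', ε, hε, h⟩ := hac
      rw [Filter.EventuallyEq, Metric.eventually_nhds_iff]
      refine ⟨ε, hε, fun x hx => ?_⟩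
      rw [dist_eq_norm] at hx
      have e1 := h (x - a) hx
      rw [add_sub_cancel] at e1
      exact e1
  exact h1 ⟨hz, by simpa [dist_eq_norm] using hd⟩

end Flat

end Vale.Agent.P267.H770
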