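import Vale.Agent.P267.H770.Leaf1

/-!
# P267, LINE X of the endgame: flat convexity (GX-LEAF), part 2

The maximal flat extension `ext σ₀ p` of a germ, its domain `Dom σ₀ p` (star-shaped, open), the
boundary values, and the main theorem: **the domain is convex**.
-/

set_option linter.unusedVariables false
set_option linter.unusedSectionVars false

open Set Filter Metric
open scoped Topology ComplexConjugate

noncomputable section

namespace Vale.Agent.P267.H770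

namespace Flat

variable {S : Type*} [TopologicalSpace S] (T : Flat S)

/-- `σ` is a flat map from the convex open set `U` to the interior of the piece -/
structure Ok (σ : ℂ → S) (U : Set ℂ) : Prop where
  isOpen : IsOpen U
  conv : Convex ℝ U
  memL : ∀ z ∈ U, σ z ∈ T.L
  notB : ∀ z ∈ U, σ z ∉ T.B
  flat : ∀ z ∈ U, T.FlatAt σ z

/-- the domain of the maximal flat extension of the germ of `σ₀` at `p` -/
def Dom (σ₀ : ℂ → S) (p : ℂ) : Set ℂ :=
  {a | ∃ (U : Set ℂ) (σ : ℂ → S), T.Ok σ U ∧ p ∈ U ∧ a ∈ U ∧ σ =ᶠ[𝓝 p] σ₀}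

open Classical in
/-- the maximal flat extension of the germ of `σ₀` at `p` -/
def ext (σ₀ : ℂ → S) (p a : ℂ) : S :=
  if h : a ∈ T.Dom σ₀ p then (Classical.choose (Classical.choose_spec h)) a else σ₀ a

variable {T}

theorem Ok.mono {σ : ℂ → S} {U V : Set ℂ} (h : T.Ok σ U) (hV : IsOpen V) (hc : Convex ℝ V)
    (hVU : V ⊆ U) : T.Ok σ V :=
  ⟨hV, hc, fun z hz => h.memL z (hVU hz), fun z hz => h.notB z (hVU hz),
    fun z hz => h.flat z (hVU hz)⟩

theorem Ok.congr {σ τ : ℂ → S} {U : Set ℂ} (h : T.Ok σ U) (he : EqOn σ τ U) : T.Ok τ U :=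
  ⟨h.isOpen, h.conv, fun z hz => he hz ▸ h.memL z hz, fun z hz => he hz ▸ h.notB z hz,
    fun z hz => (h.flat z hz).congr (he.eventuallyEq_of_mem (h.isOpen.mem_nhds hz))⟩

theorem Ok.continuousAt {σ : ℂ → S} {U : Set ℂ} (h : T.Ok σ U) {z : ℂ} (hz : z ∈ U) :
    ContinuousAt σ z := (h.flat z hz).continuousAt (h.memL z hz)

theorem Ok.eqOn [T2Space S] {σ τ : ℂ → S} {U V : Set ℂ} (h : T.Ok σ U) (h' : T.Ok τ V) {p : ℂ}
    (hpU : p ∈ U) (hpV : p ∈ V) (he : σ =ᶠ[𝓝 p] τ) : EqOn σ τ (U ∩ V) :=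
  eqOn_of_flat (T := T) (h.isOpen.inter h'.isOpen) (h.conv.inter h'.conv).isPreconnected
    (fun z hz => h.memL z hz.1) (fun z hz => h.flat z hz.1) (fun z hz => h'.continuousAt hz.2)
    (fun z hz _ => h'.flat z hz.2) ⟨hpU, hpV⟩ he

theorem Ok.uniform [T2Space S] {σ : ℂ → S} {U : Set ℂ} (h : T.Ok σ U) {a c z : ℂ} (ha : a ∈ U)
    (hac : T.FlatC σ a c) (hz : z ∈ U) (hd : ‖z - a‖ < T.δ) : σ z = T.ex (σ a) c a z :=
  hac.uniform h.isOpen h.conv h.memL h.flat ha hz hd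

/-! ### the maximal extension -/

section basic

variable [T2Space S] {σ₀ : ℂ → S} {p : ℂ}

theorem ext_eqOn {U : Set ℂ} {σ : ℂ → S} (h : T.Ok σ U) (hp : p ∈ U) (he : σ =ᶠ[𝓝 p] σ₀) :
    EqOn (T.ext σ₀ p) σ U := by
  intro a ha
  have hD : a ∈ T.Dom σ₀ p := ⟨U, σ, h, hp, ha, he⟩
  obtain ⟨h1, h2, h3, h4⟩ := Classical.choose_spec (Classical.choose_spec hD)
  rw [ext, dif_pos hD]
  exact h1.eqOn h h2 hp (h4.trans he.symm) ⟨h3, ha⟩

theorem dom_isOpen : IsOpen (T.Dom σ₀ p) := by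
  rw [isOpen_iff_mem_nhds]
  rintro a ⟨U, σ, h, hp, ha, he⟩
  filter_upwards [h.isOpen.mem_nhds ha] with b hb
  exact ⟨U, σ, h, hp, hb, he⟩

theorem dom_self (hne : (T.Dom σ₀ p).Nonempty) : p ∈ T.Dom σ₀ p := by
  obtain ⟨a, U, σ, h, hp, ha, he⟩ := hne
  exact ⟨U, σ, h, hp, hp, he⟩

theorem dom_star {a : ℂ} (ha : a ∈ T.Dom σ₀ p) : segment ℝ p a ⊆ T.Dom σ₀ p := by
  obtain ⟨U, σ, h, hp, ha, he⟩ := ha
  exact fun b hb => ⟨U, σ, h, hp, h.conv.segment_subset hp ha hb, he⟩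

theorem ext_memL {a : ℂ} (ha : a ∈ T.Dom σ₀ p) : T.ext σ₀ p a ∈ T.L := by
  obtain ⟨U, σ, h, hp, ha, he⟩ := ha
  rw [ext_eqOn h hp he ha]; exact h.memL a ha

theorem ext_notB {a : ℂ} (ha : a ∈ T.Dom σ₀ p) : T.ext σ₀ p a ∉ T.B := by
  obtain ⟨U, σ, h, hp, ha, he⟩ := ha
  rw [ext_eqOn h hp he ha]; exact h.notB a ha

theorem ext_flat {a : ℂ} (ha : a ∈ T.Dom σ₀ p) : T.FlatAt (T.ext σ₀ p) a := by
  obtain ⟨U, σ, h, hp, ha, he⟩ := ha
  exact (h.flat a ha).congr
    ((ext_eqOn h hp he).symm.eventuallyEq_of_mem (h.isOpen.mem_nhds ha))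

theorem ext_ok {V : Set ℂ} (hV : IsOpen V) (hc : Convex ℝ V) (h : V ⊆ T.Dom σ₀ p) :
    T.Ok (T.ext σ₀ p) V :=
  ⟨hV, hc, fun z hz => ext_memL (h hz), fun z hz => ext_notB (h hz), fun z hz => ext_flat (h hz)⟩

theorem ext_germ (hne : (T.Dom σ₀ p).Nonempty) : T.ext σ₀ p =ᶠ[𝓝 p] σ₀ := by
  obtain ⟨a, U, σ, h, hp, ha, he⟩ := hne
  exact ((ext_eqOn h hp he).eventuallyEq_of_mem (h.isOpen.mem_nhds hp)).trans he

end basic

/-! ### extension along a segment -/

section seg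

variable [T2Space S] {σ₀ : ℂ → S} {p : ℂ}

theorem mem_seg {p q : ℂ} {t : ℝ} (h0 : 0 ≤ t) (h1 : t ≤ 1) : p + t * (q - p) ∈ segment ℝ p q := by
  refine ⟨1 - t, t, by linarith, h0, by ring, ?_⟩
  simp only [Complex.real_smul]; push_cast; ring

theorem seg_mem {p q z : ℂ} (h : z ∈ segment ℝ p q) :
    ∃ t : ℝ, 0 ≤ t ∧ t ≤ 1 ∧ z = p + t * (q - p) := by
  obtain ⟨a, b, ha, hb, hab, rfl⟩ := h
  refine ⟨b, hb, by linarith, ?_⟩
  have : a = 1 - b := by linarith
  subst this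
  simp only [Complex.real_smul]; push_cast; ring

/-- the set of points of the ball where `ex` has values in the interior is open -/
theorem ex_interior {x : S} (hx : x ∈ T.L) {c a z : ℂ} (hc : ‖c‖ = 1) (hz : ‖z - a‖ < T.δ)
    (hL : T.ex x c a z ∈ T.L) (hB : T.ex x c a z ∉ T.B) :
    ∀ᶠ w in 𝓝 z, ‖w - a‖ < T.δ ∧ T.ex x c a w ∈ T.L ∧ T.ex x c a w ∉ T.B := by
  obtain ⟨c', hc', ε, hε, h⟩ := ex_flat hx hc hz hL
  obtain ⟨ε', hε', h'⟩ := T.interior _ hL hB
  have h1 : ∀ᶠ w in 𝓝 z, ‖w - a‖ < T.δ :=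
    (isOpen_lt (by fun_prop) continuous_const).mem_nhds hz
  filter_upwards [h1, ball_mem_nhds z (lt_min hε hε')] with w hw hw'
  rw [mem_ball, dist_eq_norm] at hw'
  have e1 := h (w - z) (lt_of_lt_of_le hw' (min_le_left _ _))
  rw [add_sub_cancel] at e1
  have e2 := h' (c' * (w - z)) (by
    rw [norm_mul, hc', one_mul]; exact lt_of_lt_of_le hw' (min_le_right _ _))
  rw [e1]
  exact ⟨hw, e2.1, e2.2⟩

variable (hne : (T.Dom σ₀ p).Nonempty)

/-- along a segment whose half-open part lies in the domain, `ext` is given by `ex` near the end -/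
theorem ext_seg {q : ℂ} (hq : ∀ t : ℝ, 0 ≤ t → t < 1 → p + t * (q - p) ∈ T.Dom σ₀ p)
    {s : ℝ} (hs0 : 0 ≤ s) (hs1 : s < 1) {c : ℂ}
    (hc : T.FlatC (T.ext σ₀ p) (p + s * (q - p)) c) (hd : (1 - s) * ‖q - p‖ < T.δ) {t : ℝ}
    (hst : s ≤ t) (ht1 : t < 1) :
    T.ext σ₀ p (p + t * (q - p)) =
      T.ex (T.ext σ₀ p (p + s * (q - p))) c (p + s * (q - p)) (p + t * (q - p)) := by
  obtain ⟨U, σ, h, hp, ht, he⟩ := hq t (hs0.trans hst) ht1
  have hr : p + s * (q - p) ∈ U := by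
    rcases eq_or_lt_of_le (hs0.trans hst) with h0 | h0
    · have hs : s = 0 := by linarith
      rw [hs]; simpa using hp
    · refine h.conv.segment_subset hp ht ?_
      have := mem_seg (p := p) (q := p + t * (q - p)) (t := s / t) (by positivity)
        ((div_le_one h0).2 hst)
      convert this using 1
      push_cast
      have : (t : ℂ) ≠ 0 := by exact_mod_cast h0.ne'
      field_simp
      ring
  have heq := ext_eqOn h hp he
  have hU : T.Ok (T.ext σ₀ p) U := h.congr heq.symm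
  refine hU.uniform hr hc ht ?_
  have : p + t * (q - p) - (p + s * (q - p)) = ((t - s : ℝ) : ℂ) * (q - p) := by push_cast; ring
  rw [this, norm_mul, Complex.norm_real, Real.norm_of_nonneg (by linarith)]
  refine lt_of_le_of_lt ?_ hd
  gcongr

/-- the end point of a segment whose half-open part lies in the domain -/
theorem ex_end_memL {q : ℂ} (hq : ∀ t : ℝ, 0 ≤ t → t < 1 → p + t * (q - p) ∈ T.Dom σ₀ p)
    {s : ℝ} (hs0 : 0 ≤ s) (hs1 : s < 1) {c : ℂ}
    (hc : T.FlatC (T.ext σ₀ p) (p + s * (q - p)) c) (hd : (1 - s) * ‖q - p‖ < T.δ) :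
    T.ex (T.ext σ₀ p (p + s * (q - p))) c (p + s * (q - p)) q ∈ T.L := by
  have hrD := hq s hs0 hs1
  have hn : q - (p + s * (q - p)) = ((1 - s : ℝ) : ℂ) * (q - p) := by push_cast; ring
  have hnn : ‖q - (p + s * (q - p))‖ < T.δ := by
    rw [hn, norm_mul, Complex.norm_real, Real.norm_of_nonneg (by linarith)]
    exact hd
  refine T.closed _ (ext_memL hrD) _ (by rw [norm_mul, hc.1, one_mul]; exact hnn)
    ⟨fun n : ℕ => c * (p + ((1 - (1 - s) / (n + 1) : ℝ) : ℂ) * (q - p) - (p + s * (q - p))),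
      ?_, fun n => ?_⟩
  · have h1 : Tendsto (fun n : ℕ => (1 - (1 - s) / ((n : ℝ) + 1) : ℝ)) atTop (𝓝 1) := by
      have h2 := (tendsto_one_div_add_atTop_nhds_zero_nat (𝕜 := ℝ)).const_mul (1 - s)
      have h3 := h2.const_sub (1 : ℝ)
      simp only [mul_zero, sub_zero] at h3
      refine h3.congr fun n => ?_
      ring
    have h4 : Tendsto (fun n : ℕ => ((1 - (1 - s) / ((n : ℝ) + 1) : ℝ) : ℂ)) atTop
        (𝓝 ((1 : ℝ) : ℂ)) := (Complex.continuous_ofReal.tendsto _).comp h1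
    have h5 : Tendsto (fun n : ℕ => c * (p + ((1 - (1 - s) / ((n : ℝ) + 1) : ℝ) : ℂ) * (q - p)
        - (p + s * (q - p)))) atTop
        (𝓝 (c * (p + ((1 : ℝ) : ℂ) * (q - p) - (p + s * (q - p))))) :=
      (((h4.mul_const (q - p)).const_add p).sub_const _).const_mul c
    convert h5 using 2
    push_cast; ring
  · have hpos : (0 : ℝ) < n + 1 := by positivity
    have h1 : (1 - s) / ((n : ℝ) + 1) ≤ 1 - s := by
      rw [div_le_iff₀ hpos]
      have : (0 : ℝ) ≤ n := Nat.cast_nonneg n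
      nlinarith
    have h2 : 0 < (1 - s) / ((n : ℝ) + 1) := div_pos (by linarith) hpos
    have := ext_seg hq hs0 hs1 hc hd (t := 1 - (1 - s) / (n + 1)) (by linarith) (by linarith)
    have h3 := ext_memL (hq (1 - (1 - s) / ((n : ℝ) + 1)) (by linarith) (by linarith))
    rw [this] at h3
    exact h3

/-- if the end point of such a segment is not mapped to the boundary, it is in the domain -/
theorem mem_dom_of_end {q : ℂ} (hq : ∀ t : ℝ, 0 ≤ t → t < 1 → p + t * (q - p) ∈ T.Dom σ₀ p)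
    {s : ℝ} (hs0 : 0 ≤ s) (hs1 : s < 1) {c : ℂ}
    (hc : T.FlatC (T.ext σ₀ p) (p + s * (q - p)) c) (hd : (1 - s) * ‖q - p‖ < T.δ)
    (hB : T.ex (T.ext σ₀ p (p + s * (q - p))) c (p + s * (q - p)) q ∉ T.B) :
    q ∈ T.Dom σ₀ p := by
  set r : ℂ := p + s * (q - p) with hr
  have hrD : r ∈ T.Dom σ₀ p := hq s hs0 hs1
  have hne : (T.Dom σ₀ p).Nonempty := ⟨r, hrD⟩
  obtain ⟨U₀, σ, h, hp, hrU, he⟩ := hrD
  have hrD : r ∈ T.Dom σ₀ p := ⟨U₀, σ, h, hp, hrU, he⟩
  have heq := ext_eqOn h hp he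
  have hU₀ : T.Ok (T.ext σ₀ p) U₀ := h.congr heq.symm
  have hxL := ext_memL hrD
  set τ := T.ex (T.ext σ₀ p r) c r with hτ
  -- the open set `V`
  set V : Set ℂ := {z | ∀ᶠ w in 𝓝 z, ‖w - r‖ < T.δ ∧ τ w ∈ T.L ∧ τ w ∉ T.B} with hV
  have hVo : IsOpen V := isOpen_setOfPred_eventually_nhds
  have hV1 : ∀ z ∈ V, ‖z - r‖ < T.δ ∧ τ z ∈ T.L ∧ τ z ∉ T.B := fun z hz => hz.self_of_nhds
  have hqr : ‖q - r‖ < T.δ := by
    have hn : q - r = ((1 - s : ℝ) : ℂ) * (q - p) := by rw [hr]; push_cast; ring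
    rw [hn, norm_mul, Complex.norm_real, Real.norm_of_nonneg (by linarith)]
    exact hd
  have hseg2 : segment ℝ r q ⊆ V := by
    intro z hz
    obtain ⟨t, ht0, ht1, rfl⟩ := seg_mem hz
    have hz2 : ‖r + t * (q - r) - r‖ < T.δ := by
      rw [add_sub_cancel_left, norm_mul, Complex.norm_real, Real.norm_of_nonneg ht0]
      refine lt_of_le_of_lt ?_ hqr
      exact mul_le_of_le_one_left (norm_nonneg _) ht1
    rcases eq_or_lt_of_le ht1 with h1 | h1
    · subst h1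
      have e : r + ((1 : ℝ) : ℂ) * (q - r) = q := by push_cast; ring
      rw [e]
      exact ex_interior hxL hc.1 hqr (ex_end_memL hq hs0 hs1 hc hd) hB
    · have e : r + t * (q - r) = p + ((s + t * (1 - s) : ℝ) : ℂ) * (q - p) := by
        rw [hr]; push_cast; ring
      have h2 : s ≤ s + t * (1 - s) := by nlinarith
      have h3 : s + t * (1 - s) < 1 := by nlinarith
      have h4 := ext_seg hq hs0 hs1 hc hd h2 h3
      have h5 := hq _ (hs0.trans h2) h3
      have h6 := ext_memL h5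
      have h7 := ext_notB h5
      rw [h4, ← e] at h6 h7
      exact ex_interior hxL hc.1 hz2 h6 h7
  have hseg1 : segment ℝ p r ⊆ U₀ := hU₀.conv.segment_subset hp hrU
  have hcomp : ∀ a b : ℂ, IsCompact (segment ℝ a b) := fun a b => by
    rw [segment_eq_image_lineMap]
    exact isCompact_Icc.image (AffineMap.lineMap_continuous)
  obtain ⟨ε₁, hε₁, hT1⟩ := (hcomp p r).exists_thickening_subset_open hU₀.isOpen hseg1
  obtain ⟨ε₂, hε₂, hT2⟩ := (hcomp r q).exists_thickening_subset_open hVo hseg2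
  set ε := min ε₁ ε₂ with hε
  have hεp : 0 < ε := lt_min hε₁ hε₂
  set U₁ := thickening ε (segment ℝ p r) with hU₁
  set U₂ := thickening ε (segment ℝ r q) with hU₂
  have hU₁s : U₁ ⊆ U₀ := (thickening_mono (min_le_left _ _) _).trans hT1
  have hU₂s : U₂ ⊆ V := (thickening_mono (min_le_right _ _) _).trans hT2
  have hc1 : Convex ℝ U₁ := (convex_segment p r).thickening ε
  have hc2 : Convex ℝ U₂ := (convex_segment r q).thickening ε
  have ok1 : T.Ok (T.ext σ₀ p) U₁ := hU₀.mono isOpen_thickening hc1 hU₁s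
  have ok2 : T.Ok τ U₂ := ⟨isOpen_thickening, hc2, fun z hz => (hV1 z (hU₂s hz)).2.1,
    fun z hz => (hV1 z (hU₂s hz)).2.2, fun z hz =>
      ex_flat hxL hc.1 (hV1 z (hU₂s hz)).1 (hV1 z (hU₂s hz)).2.1⟩
  have hr1 : r ∈ U₁ := self_subset_thickening hεp _ (right_mem_segment ℝ p r)
  have hr2 : r ∈ U₂ := self_subset_thickening hεp _ (left_mem_segment ℝ r q)
  have hgerm : T.ext σ₀ p =ᶠ[𝓝 r] τ := by
    obtain ⟨hc', ε', hε', h'⟩ := hc
    rw [Filter.EventuallyEq, Metric.eventually_nhds_iff]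
    refine ⟨ε', hε', fun x hx => ?_⟩
    rw [dist_eq_norm] at hx
    have e1 := h' (x - r) hx
    rw [add_sub_cancel] at e1
    exact e1
  have hagree : EqOn (T.ext σ₀ p) τ (U₁ ∩ U₂) := ok1.eqOn ok2 hr1 hr2 hgerm
  classical
  set ρ : ℂ → S := fun z => if z ∈ U₁ then T.ext σ₀ p z else τ z with hρ
  have hρ1 : EqOn (T.ext σ₀ p) ρ U₁ := fun z hz => by simp only [hρ, if_pos hz]
  have hρ2 : EqOn τ ρ U₂ := fun z hz => by
    by_cases hz1 : z ∈ U₁
    · simp only [hρ, if_pos hz1]; exact (hagree ⟨hz1, hz⟩).symm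
    · simp only [hρ, if_neg hz1]
  have ok1' := ok1.congr hρ1
  have ok2' := ok2.congr hρ2
  set U := thickening ε (segment ℝ p q) with hU
  have hUc : ∀ z ∈ U, z ∈ U₁ ∨ z ∈ U₂ := by
    intro z hz
    rw [hU, mem_thickening_iff] at hz
    obtain ⟨w, hw, hzw⟩ := hz
    obtain ⟨t, ht0, ht1, rfl⟩ := seg_mem hw
    rcases le_or_gt t s with hts | hts
    · left
      rw [hU₁, mem_thickening_iff]
      refine ⟨_, ?_, hzw⟩
      rcases eq_or_lt_of_le hs0 with h0 | h0
      · have : t = 0 := by linarith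
        rw [this]; simpa using left_mem_segment ℝ p r
      · have := mem_seg (p := p) (q := r) (t := t / s) (by positivity) ((div_le_one h0).2 hts)
        convert this using 1
        have : (s : ℂ) ≠ 0 := by exact_mod_cast h0.ne'
        rw [hr]; push_cast; field_simp; ring
    · right
      rw [hU₂, mem_thickening_iff]
      refine ⟨_, ?_, hzw⟩
      have h1s : (0 : ℝ) < 1 - s := by linarith
      have := mem_seg (p := r) (q := q) (t := (t - s) / (1 - s)) (by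
        apply div_nonneg <;> linarith) ((div_le_one h1s).2 (by linarith))
      convert this using 1
      have : ((1 : ℂ) - s) ≠ 0 := by
        have : ((1 - s : ℝ) : ℂ) ≠ 0 := by exact_mod_cast h1s.ne'
        simpa using this
      rw [hr]; push_cast; field_simp; ring
  have okU : T.Ok ρ U := by
    refine ⟨isOpen_thickening, (convex_segment p q).thickening ε, fun z hz => ?_, fun z hz => ?_,
      fun z hz => ?_⟩
    · rcases hUc z hz with h1 | h1
      · exact ok1'.memL z h1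
      · exact ok2'.memL z h1
    · rcases hUc z hz with h1 | h1
      · exact ok1'.notB z h1
      · exact ok2'.notB z h1
    · rcases hUc z hz with h1 | h1
      · exact ok1'.flat z h1
      · exact ok2'.flat z h1
  refine ⟨U, ρ, okU, self_subset_thickening hεp _ (left_mem_segment ℝ p q),
    self_subset_thickening hεp _ (right_mem_segment ℝ p q), ?_⟩
  have hpU1 : p ∈ U₁ := self_subset_thickening hεp _ (left_mem_segment ℝ p r)
  exact (hρ1.symm.eventuallyEq_of_mem (isOpen_thickening.mem_nhds hpU1)).trans (ext_germ hne)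

end seg

end Flat

end Vale.Agent.P267.H770
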