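import Vale.Agent.P267.H770.Leaf2

/-!
# P267, LINE X of the endgame: flat convexity (GX-LEAF), part 3

The domain of the maximal flat extension is convex (strict convexity of the boundary).
-/

set_option linter.unusedVariables false
set_option linter.unusedSectionVars false

open Set Filter Metric
open scoped Topology ComplexConjugate

noncomputable section

namespace Vale.Agent.P267.H770

namespace Flat

variable {S : Type*} [TopologicalSpace S] {T : Flat S} [T2Space S] {σ₀ : ℂ → S} {p : ℂ}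

/-- strict convexity at a boundary point: the limit points of the two half lines of a line cannot
both be in `L` -/
theorem boundary_line {x : S} (hx : x ∈ T.L) {c a q v : ℂ} (hc : ‖c‖ = 1) (hq : ‖q - a‖ < T.δ)
    (hv : v ≠ 0) (hB : T.ex x c a q ∈ T.B)
    (h : ∀ᶠ t : ℝ in 𝓝 0, T.ex x c a (q + t * v) ∈ T.L) : False := by
  obtain ⟨c', hc', ε, hε, hf⟩ := ex_flat hx hc hq (T.B_sub hB)
  obtain ⟨n, hn, hcon⟩ := T.convex _ hB
  obtain ⟨η, hη, hη'⟩ := Metric.eventually_nhds_iff.1 h
  have hv' : 0 < ‖v‖ := norm_pos_iff.2 hv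
  set t : ℝ := min (η / 2) (min ε T.δ / (2 * ‖v‖)) with ht
  have ht0 : 0 < t := lt_min (by positivity) (div_pos (lt_min hε T.δ_pos) (by positivity))
  have ht1 : t < η := (min_le_left _ _).trans_lt (by linarith)
  have ht2 : t * ‖v‖ < min ε T.δ := by
    have h1 : t * ‖v‖ ≤ min ε T.δ / (2 * ‖v‖) * ‖v‖ := by gcongr; exact min_le_right _ _
    have h2 : min ε T.δ / (2 * ‖v‖) * ‖v‖ = min ε T.δ / 2 := by field_simp
    have h3 : 0 < min ε T.δ := lt_min hε T.δ_pos
    linarith
  -- both signs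
  have key : ∀ s : ℝ, |s| = t → T.F (T.ex x c a q) (c' * (s * v)) ∈ T.L := by
    intro s hs
    have h1 := hf (s * v) (by
      rw [norm_mul, Complex.norm_real, Real.norm_eq_abs, hs]
      exact ht2.trans_le (min_le_left _ _))
    rw [← h1]
    exact hη' (by rw [dist_eq_norm, sub_zero, Real.norm_eq_abs, hs]; exact ht1)
  have hnorm : ∀ s : ℝ, |s| = t → ‖c' * (s * v)‖ < T.δ := by
    intro s hs
    rw [norm_mul, norm_mul, hc', one_mul, Complex.norm_real, Real.norm_eq_abs, hs]
    exact ht2.trans_le (min_le_right _ _)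
  have hne : ∀ s : ℝ, |s| = t → c' * (s * v) ≠ 0 := by
    intro s hs
    have : s ≠ 0 := by rintro rfl; simp at hs; exact ht0.ne hs
    have hc0 : c' ≠ 0 := by rintro rfl; simp at hc'
    exact mul_ne_zero hc0 (mul_ne_zero (by exact_mod_cast this) hv)
  rcases le_total 0 ((c' * ((t : ℝ) * v) * conj n).re) with h0 | h0
  · exact hcon _ (hne t (abs_of_pos ht0)) (hnorm t (abs_of_pos ht0)) h0
      (key t (abs_of_pos ht0))
  · have ha : |(-t)| = t := by rw [abs_neg, abs_of_pos ht0]
    have h1 : c' * (((-t : ℝ) : ℂ) * v) * conj n = -(c' * ((t : ℝ) * v) * conj n) := by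
      push_cast; ring
    refine hcon _ (hne (-t) ha) (hnorm (-t) ha) ?_ (key (-t) ha)
    rw [h1, Complex.neg_re]; linarith

/-- **The domain of the maximal flat extension is convex.** -/
theorem dom_convex : Convex ℝ (T.Dom σ₀ p) := by
  rw [convex_iff_segment_subset]
  intro a ha b hb z hz
  set D := T.Dom σ₀ p with hD
  have hne : D.Nonempty := ⟨a, ha⟩
  have hp : p ∈ D := dom_self hne
  by_contra hzD
  -- parametrisation
  set P : ℝ × ℝ → ℂ := fun x => p + x.2 * ((1 - x.1) * (a - p) + x.1 * (b - p)) with hP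
  have hPc : Continuous P := by
    simp only [hP]; fun_prop
  set K : Set (ℝ × ℝ) := (Icc 0 1 ×ˢ Icc 0 1) ∩ P ⁻¹' Dᶜ with hK
  have hKc : IsCompact K :=
    (isCompact_Icc.prod isCompact_Icc).inter_right (dom_isOpen.isClosed_compl.preimage hPc)
  have hKne : K.Nonempty := by
    obtain ⟨t, ht0, ht1, rfl⟩ := seg_mem hz
    refine ⟨(t, 1), ⟨⟨⟨ht0, ht1⟩, ⟨zero_le_one, le_rfl⟩⟩, ?_⟩⟩
    have : P (t, 1) = a + t * (b - a) := by simp only [hP]; push_cast; ring
    simp only [mem_preimage, mem_compl_iff, this]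
    exact hzD
  obtain ⟨⟨θ₀, m⟩, hmK, hmin⟩ := hKc.exists_isMinOn hKne continuous_snd.continuousOn
  obtain ⟨⟨⟨hθ0, hθ1⟩, ⟨hm0, hm1⟩⟩, hqD⟩ := hmK
  simp only [mem_preimage, mem_compl_iff] at hqD
  simp only at hθ0 hθ1 hm0 hm1
  -- below `m` everything is in `D`
  have hbelow : ∀ θ l : ℝ, 0 ≤ θ → θ ≤ 1 → 0 ≤ l → l < m → P (θ, l) ∈ D := by
    intro θ l h1 h2 h3 h4
    by_contra h5
    have := hmin (show (θ, l) ∈ K from ⟨⟨⟨h1, h2⟩, ⟨h3, h4.le.trans hm1⟩⟩, h5⟩)
    simp only [mem_ofPred_eq] at this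
    linarith
  have hm : 0 < m := by
    rcases eq_or_lt_of_le hm0 with h | h
    · exfalso; apply hqD; rw [← h]; simpa [hP] using hp
    · exact h
  have hθ0' : 0 < θ₀ := by
    rcases eq_or_lt_of_le hθ0 with h | h
    · exfalso; apply hqD
      have : P (θ₀, m) = p + m * (a - p) := by simp only [hP, ← h]; push_cast; ring
      rw [this]
      exact dom_star ha (mem_seg hm0 hm1)
    · exact h
  have hθ1' : θ₀ < 1 := by
    rcases eq_or_lt_of_le hθ1 with h | h
    · exfalso; apply hqD
      have : P (θ₀, m) = p + m * (b - p) := by simp only [hP, h]; push_cast; ring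
      rw [this]
      exact dom_star hb (mem_seg hm0 hm1)
    · exact h
  set q := P (θ₀, m) with hq
  set v : ℂ := (1 - θ₀) * (a - p) + θ₀ * (b - p) with hv
  have hqv : q = p + m * v := by rw [hq]
  have hqp : q - p = m * v := by rw [hqv]; ring
  -- `a ≠ b`
  have hab : b - a ≠ 0 := by
    intro h
    have hba : b = a := sub_eq_zero.1 h
    apply hqD
    have : P (θ₀, m) = p + m * (a - p) := by simp only [hP, hba]; ring
    rw [← hq] at this
    rw [this]
    exact dom_star ha (mem_seg hm0 hm1)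
  -- the segment from `p` to `q`
  have hsegq : ∀ t : ℝ, 0 ≤ t → t < 1 → p + t * (q - p) ∈ D := by
    intro t ht0 ht1
    have : p + t * (q - p) = P (θ₀, t * m) := by simp only [hP, hqp, hv]; push_cast; ring
    rw [this]
    exact hbelow θ₀ (t * m) hθ0 hθ1 (by positivity) (by nlinarith)
  obtain ⟨s, hs0, hs1, hd⟩ : ∃ s : ℝ, 0 ≤ s ∧ s < 1 ∧ (1 - s) * ‖q - p‖ < T.δ := by
    have h1 : 0 < T.δ / (‖q - p‖ + 1) := div_pos T.δ_pos (by positivity)
    refine ⟨max 0 (1 - T.δ / (‖q - p‖ + 1)), le_max_left _ _, max_lt one_pos (by linarith), ?_⟩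
    have h2 : 1 - max 0 (1 - T.δ / (‖q - p‖ + 1)) ≤ T.δ / (‖q - p‖ + 1) := by
      linarith [le_max_right 0 (1 - T.δ / (‖q - p‖ + 1))]
    calc (1 - max 0 (1 - T.δ / (‖q - p‖ + 1))) * ‖q - p‖
        ≤ T.δ / (‖q - p‖ + 1) * ‖q - p‖ := by gcongr
      _ < T.δ := by
        rw [div_mul_eq_mul_div, div_lt_iff₀ (by positivity)]
        nlinarith [T.δ_pos, norm_nonneg (q - p)]
  set r : ℂ := p + s * (q - p) with hr
  have hrD : r ∈ D := hsegq s hs0 hs1
  obtain ⟨c, hc⟩ := ext_flat hrD
  have hB : T.ex (T.ext σ₀ p r) c r q ∈ T.B := by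
    by_contra hB
    exact hqD (mem_dom_of_end hsegq hs0 hs1 hc hd hB)
  have hqr : ‖q - r‖ < T.δ := by
    have hn : q - r = ((1 - s : ℝ) : ℂ) * (q - p) := by rw [hr]; push_cast; ring
    rw [hn, norm_mul, Complex.norm_real, Real.norm_of_nonneg (by linarith)]
    exact hd
  have hxL := ext_memL hrD
  -- the points of the line through `q`
  have hPθ : ∀ θ : ℝ, P (θ, m) = q + ((m * (θ - θ₀) : ℝ) : ℂ) * (b - a) := by
    intro θ
    rw [hqv, hv]; simp only [hP]; push_cast; ring
  have hline : ∀ θ : ℝ, 0 ≤ θ → θ ≤ 1 → ‖P (θ, m) - r‖ < T.δ →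
      T.ex (T.ext σ₀ p r) c r (P (θ, m)) ∈ T.L := by
    intro θ hθa hθb hθr
    -- approximate by `P (θ, l)`, `l < m`
    have hlim : Tendsto (fun k : ℕ => P (θ, m * (1 - 1 / ((k : ℝ) + 1)))) atTop
        (𝓝 (P (θ, m))) := by
      have h1 : Tendsto (fun k : ℕ => (θ, m * (1 - 1 / ((k : ℝ) + 1)))) atTop (𝓝 (θ, m)) := by
        refine Tendsto.prodMk_nhds tendsto_const_nhds ?_
        have h2 := ((tendsto_one_div_add_atTop_nhds_zero_nat (𝕜 := ℝ)).const_sub (1 : ℝ)).const_mul
          m
        simpa using h2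
      exact (hPc.tendsto _).comp h1
    have hev : ∀ᶠ k : ℕ in atTop, ‖P (θ, m * (1 - 1 / ((k : ℝ) + 1))) - r‖ < T.δ ∧
        s ≤ 1 - 1 / ((k : ℝ) + 1) := by
      refine (hlim.eventually ((isOpen_lt (f := fun z : ℂ => ‖z - r‖) (by fun_prop)
        continuous_const).mem_nhds hθr)).and ?_
      have h2 := (tendsto_one_div_add_atTop_nhds_zero_nat (𝕜 := ℝ)).const_sub (1 : ℝ)
      rw [sub_zero] at h2
      exact h2.eventually (eventually_ge_nhds hs1)
    obtain ⟨N, hN⟩ := eventually_atTop.1 hev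
    refine T.closed _ hxL _ (by rw [norm_mul, hc.1, one_mul]; exact hθr)
      ⟨fun k => c * (P (θ, m * (1 - 1 / (((k + N : ℕ) : ℝ) + 1))) - r), ?_, fun k => ?_⟩
    · exact ((((tendsto_add_atTop_iff_nat N).2 hlim)).sub_const r).const_mul c
    · obtain ⟨hk1, hk2⟩ := hN (k + N) (by omega)
      set l : ℝ := 1 - 1 / (((k + N : ℕ) : ℝ) + 1) with hl
      have hl1 : l < 1 := by
        rw [hl]; have : (0 : ℝ) < 1 / (((k + N : ℕ) : ℝ) + 1) := by positivity
        linarith
      have hl0 : 0 ≤ l := hs0.trans hk2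
      -- the compact triangle
      set Kl : Set ℂ := convexHull ℝ {p, P (0, m * l), P (1, m * l)} with hKl
      have hKlc : IsCompact Kl :=
        (Set.toFinite ({p, P (0, m * l), P (1, m * l)} : Set ℂ)).isCompact_convexHull ℝ
      have hform : ∀ w ∈ Kl, ∃ θ' l' : ℝ, 0 ≤ θ' ∧ θ' ≤ 1 ∧ 0 ≤ l' ∧ l' ≤ m * l ∧
          w = P (θ', l') := by
        intro w hw
        rw [hKl, convexHull_insert (by simp)] at hw
        simp only [mem_convexJoin, mem_singleton_iff, exists_eq_left] at hw
        obtain ⟨y, hy, hw⟩ := hw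
        rw [convexHull_pair] at hy
        obtain ⟨t, ht0, ht1, rfl⟩ := seg_mem hy
        obtain ⟨t', ht0', ht1', rfl⟩ := seg_mem hw
        refine ⟨t, t' * (m * l), ht0, ht1, by positivity, ?_, ?_⟩
        · have : 0 ≤ m * l := by positivity
          nlinarith
        · simp only [hP]; push_cast; ring
      have hKlD : Kl ⊆ D := by
        intro w hw
        obtain ⟨θ', l', h1, h2, h3, h4, rfl⟩ := hform w hw
        exact hbelow θ' l' h1 h2 h3 (lt_of_le_of_lt h4 (by nlinarith))
      obtain ⟨ε, hε, hεD⟩ := hKlc.exists_thickening_subset_open dom_isOpen hKlD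
      have hok : T.Ok (T.ext σ₀ p) (thickening ε Kl) :=
        ext_ok isOpen_thickening ((convex_convexHull ℝ _).thickening ε) hεD
      have hmemKl : ∀ θ' l' : ℝ, 0 ≤ θ' → θ' ≤ 1 → 0 ≤ l' → l' ≤ m * l → P (θ', l') ∈ Kl := by
        intro θ' l' h1 h2 h3 h4
        rw [hKl, convexHull_insert (by simp)]
        simp only [mem_convexJoin, mem_singleton_iff, exists_eq_left]
        refine ⟨P (θ', m * l), ?_, ?_⟩
        · rw [convexHull_pair]
          have := mem_seg (p := P (0, m * l)) (q := P (1, m * l)) h1 h2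
          convert this using 1
          simp only [hP]; push_cast; ring
        · rcases eq_or_lt_of_le (h3.trans h4) with h5 | h5
          · have : l' = 0 := by linarith
            rw [this]
            have : P (θ', 0) = p := by simp [hP]
            rw [this]; exact left_mem_segment ℝ _ _
          · have := mem_seg (p := p) (q := P (θ', m * l)) (t := l' / (m * l)) (by positivity)
              ((div_le_one h5).2 h4)
            convert this using 1
            have h8 : ((l' / (m * l) : ℝ) : ℂ) * (m * l) = l' := by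
              rw [← Complex.ofReal_mul, ← Complex.ofReal_mul, div_mul_cancel₀ _ h5.ne']
            simp only [hP]; push_cast at h8 ⊢
            linear_combination (-((1 - (θ' : ℂ)) * (a - p) + θ' * (b - p))) * h8
      have hrK : r ∈ thickening ε Kl := by
        refine self_subset_thickening hε _ ?_
        have : r = P (θ₀, s * m) := by simp only [hP, hr, hqp, hv]; push_cast; ring
        rw [this]
        exact hmemKl θ₀ (s * m) hθ0 hθ1 (by positivity) (by nlinarith)
      have hzK : P (θ, m * l) ∈ thickening ε Kl :=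
        self_subset_thickening hε _ (hmemKl θ (m * l) hθa hθb (by positivity) le_rfl)
      have h1 := hok.uniform hrK hc hzK hk1
      have h2 := hok.memL _ hzK
      rw [h1] at h2
      exact h2
  refine boundary_line hxL hc.1 hqr hab hB ?_
  -- `q + t (b - a) = P (θ₀ + t / m, m)`
  have hmc : (m : ℂ) ≠ 0 := by exact_mod_cast hm.ne'
  have e1 : ∀ t : ℝ, q + t * (b - a) = P (θ₀ + t / m, m) := by
    intro t
    rw [hPθ]
    have : m * (θ₀ + t / m - θ₀) = t := by field_simp; ring
    rw [this]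
  have c1 : Tendsto (fun t : ℝ => θ₀ + t / m) (𝓝 0) (𝓝 θ₀) := by
    have : Continuous fun t : ℝ => θ₀ + t / m := by fun_prop
    simpa using this.tendsto 0
  have c2 : Tendsto (fun t : ℝ => q + t * (b - a)) (𝓝 0) (𝓝 q) := by
    have : Continuous fun t : ℝ => q + (t : ℂ) * (b - a) := by fun_prop
    simpa using this.tendsto 0
  filter_upwards [c1.eventually (lt_mem_nhds hθ0'), c1.eventually (gt_mem_nhds hθ1'),
    c2.eventually ((isOpen_lt (f := fun z : ℂ => ‖z - r‖) (by fun_prop) continuous_const).mem_nhds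
      hqr)] with t h1 h2 h3
  rw [e1] at h3 ⊢
  exact hline _ h1.le h2.le h3

end Flat

end Vale.Agent.P267.H770
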