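import Vale.Agent.P267.H770.Leaf3

/-!
# P267, LINE X of the endgame: flat convexity (GX-LEAF), part 4

Change of the base point, maximality, boundary values at all points of the frontier, injectivity of
the maximal flat extension, and the image is open and closed.
-/

set_option linter.unusedVariables false
set_option linter.unusedSectionVars false

open Set Filter Metric
open scoped Topology ComplexConjugate

noncomputable section

namespace Vale.Agent.P267.H770

namespace Flat

variable {S : Type*} [TopologicalSpace S] {T : Flat S} [T2Space S] {σ₀ : ℂ → S} {p : ℂ}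

theorem ext_ok_dom : T.Ok (T.ext σ₀ p) (T.Dom σ₀ p) :=
  ext_ok dom_isOpen dom_convex Subset.rfl

/-- a flat map on a convex open set meeting the domain which agrees with `ext` near one point of the
domain is a restriction of `ext` -/
theorem maximal {τ : ℂ → S} {U : Set ℂ} (h : T.Ok τ U) {p' : ℂ} (hp' : p' ∈ T.Dom σ₀ p)
    (hpU : p' ∈ U) (he : τ =ᶠ[𝓝 p'] T.ext σ₀ p) :
    U ⊆ T.Dom σ₀ p ∧ EqOn τ (T.ext σ₀ p) U := by
  set σ₁ := T.ext σ₀ p with hσ₁
  have hne : (T.Dom σ₀ p).Nonempty := ⟨p', hp'⟩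
  have hp : p ∈ T.Dom σ₀ p := dom_self hne
  -- `U ⊆ Dom σ₁ p'`
  have h1 : U ⊆ T.Dom σ₁ p' := fun a ha => ⟨U, τ, h, hpU, ha, he⟩
  have h2 : T.Dom σ₀ p ⊆ T.Dom σ₁ p' := fun a ha =>
    ⟨T.Dom σ₀ p, σ₁, ext_ok_dom, hp', ha, EventuallyEq.rfl⟩
  have h3 : EqOn (T.ext σ₁ p') σ₁ (T.Dom σ₀ p) := ext_eqOn ext_ok_dom hp' EventuallyEq.rfl
  have h4 : T.ext σ₁ p' =ᶠ[𝓝 p] σ₀ :=
    (h3.eventuallyEq_of_mem (dom_isOpen.mem_nhds hp)).trans (ext_germ hne)
  have h5 : T.Dom σ₁ p' ⊆ T.Dom σ₀ p := fun a ha =>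
    ⟨T.Dom σ₁ p', T.ext σ₁ p', ext_ok_dom, h2 hp, ha, h4⟩
  refine ⟨h1.trans h5, fun a ha => ?_⟩
  rw [← h3 (h5 (h1 ha))]
  exact (ext_eqOn h hpU he ha).symm

/-- closure points near a point of the domain are mapped to `L` -/
theorem ex_closure_memL {r c : ℂ} (hr : r ∈ T.Dom σ₀ p) (hc : T.FlatC (T.ext σ₀ p) r c) {z : ℂ}
    (hz : z ∈ closure (T.Dom σ₀ p)) (hd : ‖z - r‖ < T.δ) :
    T.ex (T.ext σ₀ p r) c r z ∈ T.L := by
  obtain ⟨u, hu, hlim⟩ := mem_closure_iff_seq_limit.1 hz
  have hev : ∀ᶠ n in atTop, ‖u n - r‖ < T.δ :=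
    hlim.eventually ((isOpen_lt (f := fun z : ℂ => ‖z - r‖) (by fun_prop)
      continuous_const).mem_nhds hd)
  obtain ⟨N, hN⟩ := eventually_atTop.1 hev
  refine T.closed _ (ext_memL hr) _ (by rw [norm_mul, hc.1, one_mul]; exact hd)
    ⟨fun n => c * (u (n + N) - r), (((tendsto_add_atTop_iff_nat N).2 hlim).sub_const r).const_mul c,
      fun n => ?_⟩
  have h1 := ext_ok_dom.uniform hr hc (hu (n + N)) (hN (n + N) (by omega))
  have h2 := ext_memL (hu (n + N))
  rw [h1] at h2
  exact h2

/-- frontier points are mapped to the boundary -/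
theorem ex_frontier_memB {r c : ℂ} (hr : r ∈ T.Dom σ₀ p) (hc : T.FlatC (T.ext σ₀ p) r c) {q : ℂ}
    (hq : q ∈ closure (T.Dom σ₀ p)) (hqD : q ∉ T.Dom σ₀ p) (hd : ‖q - r‖ < T.δ) :
    T.ex (T.ext σ₀ p r) c r q ∈ T.B := by
  by_contra hB
  -- change the base point to `r`
  have hne : (T.Dom σ₀ p).Nonempty := ⟨r, hr⟩
  set σ₁ := T.ext σ₀ p with hσ₁
  have h2 : T.Dom σ₀ p ⊆ T.Dom σ₁ r := fun a ha =>
    ⟨T.Dom σ₀ p, σ₁, ext_ok_dom, hr, ha, EventuallyEq.rfl⟩
  have h3 : EqOn (T.ext σ₁ r) σ₁ (T.Dom σ₀ p) := ext_eqOn ext_ok_dom hr EventuallyEq.rfl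
  have h5 : T.Dom σ₁ r ⊆ T.Dom σ₀ p :=
    (maximal (ext_ok_dom (σ₀ := σ₁) (p := r)) hr (h2 hr)
      (h3.eventuallyEq_of_mem (dom_isOpen.mem_nhds hr))).1
  have hseg : ∀ t : ℝ, 0 ≤ t → t < 1 → r + t * (q - r) ∈ T.Dom σ₁ r := by
    intro t ht0 ht1
    apply h2
    have := dom_convex (T := T) (σ₀ := σ₀) (p := p) |>.combo_interior_closure_mem_interior
      (x := r) (y := q) (by rw [dom_isOpen.interior_eq]; exact hr) hq
      (a := 1 - t) (b := t) (by linarith) ht0 (by ring)
    rw [dom_isOpen.interior_eq] at this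
    convert this using 1
    simp only [Complex.real_smul]; push_cast; ring
  have h6 : (T.ext σ₁ r) r = σ₁ r := h3 hr
  have e0 : r + ((0 : ℝ) : ℂ) * (q - r) = r := by push_cast; ring
  have hc' : T.FlatC (T.ext σ₁ r) (r + ((0 : ℝ) : ℂ) * (q - r)) c := by
    rw [e0]; exact hc.congr (h3.symm.eventuallyEq_of_mem (dom_isOpen.mem_nhds hr))
  have := mem_dom_of_end (σ₀ := σ₁) (p := r) (q := q) hseg (s := 0) le_rfl one_pos hc'
    (by simpa using hd) (by rw [e0, h6]; exact hB)
  exact hqD (h5 this)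

/-- limits at frontier points lie in the boundary -/
theorem tendsto_frontier {q : ℂ} (hq : q ∈ closure (T.Dom σ₀ p)) (hqD : q ∉ T.Dom σ₀ p) :
    ∃ y ∈ T.B, Tendsto (T.ext σ₀ p) (𝓝[T.Dom σ₀ p] q) (𝓝 y) := by
  obtain ⟨r, hr, hqr⟩ := Metric.mem_closure_iff.1 hq T.δ T.δ_pos
  rw [dist_eq_norm] at hqr
  obtain ⟨c, hc⟩ := ext_flat hr
  refine ⟨_, ex_frontier_memB hr hc hq hqD hqr, ?_⟩
  have h1 : Tendsto (T.ex (T.ext σ₀ p r) c r) (𝓝[T.Dom σ₀ p] q)
      (𝓝 (T.ex (T.ext σ₀ p r) c r q)) :=
    (ex_continuousAt (ext_memL hr) hc.1 hqr).tendsto.mono_left nhdsWithin_le_nhds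
  refine h1.congr' ?_
  have h2 : ∀ᶠ z in 𝓝[T.Dom σ₀ p] q, ‖z - r‖ < T.δ :=
    mem_nhdsWithin_of_mem_nhds ((isOpen_lt (f := fun z : ℂ => ‖z - r‖) (by fun_prop)
      continuous_const).mem_nhds hqr)
  filter_upwards [h2, self_mem_nhdsWithin] with z hz1 hz2
  exact (ext_ok_dom.uniform hr hc hz2 hz1).symm

/-! ### rigid motions -/

/-- if `ext a = ext b`, the domain is invariant under a rigid motion `z ↦ b + u (z - a)` and so is
`ext` -/
theorem motion_sub {a b : ℂ} (ha : a ∈ T.Dom σ₀ p) (hb : b ∈ T.Dom σ₀ p)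
    (hab : T.ext σ₀ p a = T.ext σ₀ p b) {ca cb : ℂ} (hca : T.FlatC (T.ext σ₀ p) a ca)
    (hcb : T.FlatC (T.ext σ₀ p) b cb) :
    ∀ z ∈ T.Dom σ₀ p, b + ca / cb * (z - a) ∈ T.Dom σ₀ p ∧
      T.ext σ₀ p (b + ca / cb * (z - a)) = T.ext σ₀ p z := by
  set D := T.Dom σ₀ p with hD
  set E := T.ext σ₀ p with hE
  have hca0 : ca ≠ 0 := by intro h; have := hca.1; rw [h] at this; simp at this
  have hcb0 : cb ≠ 0 := by intro h; have := hcb.1; rw [h] at this; simp at this
  set u := ca / cb with hu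
  have hu0 : u ≠ 0 := div_ne_zero hca0 hcb0
  have hun : ‖u‖ = 1 := by rw [hu, norm_div, hca.1, hcb.1]; norm_num
  -- the inverse motion
  set g : ℂ → ℂ := fun z => a + u⁻¹ * (z - b) with hg
  have hgc : Continuous g := by simp only [hg]; fun_prop
  set U : Set ℂ := g ⁻¹' D with hU
  have hUo : IsOpen U := dom_isOpen.preimage hgc
  have hUc : Convex ℝ U := by
    intro x hx y hy s t hs ht hst
    have hx' : g x ∈ D := hx
    have hy' : g y ∈ D := hy
    show g (s • x + t • y) ∈ D
    have : g (s • x + t • y) = s • g x + t • g y := by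
      simp only [hg, Complex.real_smul]
      have : (s : ℂ) + t = 1 := by exact_mod_cast hst
      linear_combination (-a + u⁻¹ * b) * this
    rw [this]
    exact dom_convex hx' hy' hs ht hst
  have hEg : ∀ z ∈ U, T.FlatAt (fun w => E (g w)) z := by
    intro z hz
    obtain ⟨c, hc, ε, hε, h⟩ := ext_flat (show g z ∈ D from hz)
    refine ⟨c * u⁻¹, by rw [norm_mul, norm_inv, hun, hc]; norm_num, ε, hε, fun w hw => ?_⟩
    have h1 := h (u⁻¹ * w) (by rw [norm_mul, norm_inv, hun]; simpa using hw)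
    have h2 : g (z + w) = g z + u⁻¹ * w := by simp only [hg]; ring
    show E (g (z + w)) = T.F (E (g z)) (c * u⁻¹ * w)
    rw [h2]
    refine Eq.trans h1 ?_
    show T.F _ (c * (u⁻¹ * w)) = T.F _ (c * u⁻¹ * w)
    rw [mul_assoc]
  have hok : T.Ok (fun w => E (g w)) U :=
    ⟨hUo, hUc, fun z hz => ext_memL hz, fun z hz => ext_notB hz, hEg⟩
  have hgb : g b = a := by simp [hg]
  have hbU : b ∈ U := by show g b ∈ D; rw [hgb]; exact ha
  have hgerm : (fun w => E (g w)) =ᶠ[𝓝 b] E := by
    obtain ⟨_, ε, hε, h⟩ := hca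
    obtain ⟨_, ε', hε', h'⟩ := hcb
    rw [Filter.EventuallyEq, Metric.eventually_nhds_iff]
    refine ⟨min ε ε', lt_min hε hε', fun x hx => ?_⟩
    rw [dist_eq_norm] at hx
    have e1 := h (u⁻¹ * (x - b)) (by
      rw [norm_mul, norm_inv, hun]; simpa using lt_of_lt_of_le hx (min_le_left _ _))
    have e2 := h' (x - b) (lt_of_lt_of_le hx (min_le_right _ _))
    rw [add_sub_cancel] at e2
    show E (a + u⁻¹ * (x - b)) = E x
    rw [e1, e2, hab]
    congr 1
    rw [hu]; field_simp
  obtain ⟨h1, h2⟩ := maximal hok hb hbU hgerm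
  intro z hz
  have hgz : g (b + u * (z - a)) = z := by
    simp only [hg]; field_simp; ring
  have hzU : b + u * (z - a) ∈ U := by show g _ ∈ D; rw [hgz]; exact hz
  refine ⟨h1 hzU, ?_⟩
  have := h2 hzU
  simp only [hgz] at this
  exact this.symm

/-- **Injectivity.** If the domain is not all of `ℂ`, the maximal flat extension is injective. -/
theorem ext_injOn (hD : T.Dom σ₀ p ≠ univ) : InjOn (T.ext σ₀ p) (T.Dom σ₀ p) := by
  intro a ha b hb hab
  by_contra hne
  obtain ⟨ca, hca⟩ := ext_flat ha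
  obtain ⟨cb, hcb⟩ := ext_flat hb
  have hca0 : ca ≠ 0 := by intro h; have := hca.1; rw [h] at this; simp at this
  have hcb0 : cb ≠ 0 := by intro h; have := hcb.1; rw [h] at this; simp at this
  have m1 := motion_sub ha hb hab hca hcb
  have m2 := motion_sub hb ha hab.symm hcb hca
  set D := T.Dom σ₀ p with hDdef
  have hDc : Convex ℝ D := dom_convex
  have hDo : IsOpen D := dom_isOpen
  set u := ca / cb with hu
  have hun : ‖u‖ = 1 := by rw [hu, norm_div, hca.1, hcb.1]; norm_num
  have hu0 : u ≠ 0 := div_ne_zero hca0 hcb0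
  by_cases hu1 : u = 1
  · -- translation by `v`
    set v := b - a with hv
    have hv0 : v ≠ 0 := sub_ne_zero.2 (Ne.symm hne)
    have hcc : ca = cb := by rwa [hu, div_eq_one_iff_eq hcb0] at hu1
    have t1 : ∀ z ∈ D, z + v ∈ D := fun z hz => by
      have := (m1 z hz).1
      rw [hu1] at this
      convert this using 1
      rw [hv]; ring
    have t2 : ∀ z ∈ D, z - v ∈ D := fun z hz => by
      have := (m2 z hz).1
      rw [hcc, div_self hcb0] at this
      convert this using 1
      rw [hv]; ring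
    -- a frontier point
    obtain ⟨q, hqf⟩ : (frontier D).Nonempty := by
      rw [nonempty_iff_ne_empty, Ne, frontier_eq_empty_iff]
      push Not
      exact ⟨⟨a, ha⟩, hD⟩
    rw [hDo.frontier_eq] at hqf
    obtain ⟨hqc, hqD⟩ := hqf
    have c1 : q + v ∈ closure D :=
      map_mem_closure (f := fun z : ℂ => z + v) (by fun_prop) hqc t1
    have c2 : q - v ∈ closure D :=
      map_mem_closure (f := fun z : ℂ => z - v) (by fun_prop) hqc t2
    have c3 : ∀ t : ℝ, |t| ≤ 1 → q + t * v ∈ closure D := by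
      intro t ht
      rw [abs_le] at ht
      have := hDc.closure c2 c1 (a := (1 - t) / 2) (b := (1 + t) / 2) (by linarith) (by linarith)
        (by ring)
      convert this using 1
      simp only [Complex.real_smul]; push_cast; ring
    obtain ⟨r, hr, hqr⟩ := Metric.mem_closure_iff.1 hqc T.δ T.δ_pos
    rw [dist_eq_norm] at hqr
    obtain ⟨c, hc⟩ := ext_flat hr
    have hB := ex_frontier_memB hr hc hqc hqD hqr
    refine boundary_line (ext_memL hr) hc.1 hqr hv0 hB ?_
    have c4 : Tendsto (fun t : ℝ => q + t * v) (𝓝 0) (𝓝 q) := by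
      have : Continuous fun t : ℝ => q + (t : ℂ) * v := by fun_prop
      simpa using this.tendsto 0
    filter_upwards [c4.eventually ((isOpen_lt (f := fun z : ℂ => ‖z - r‖) (by fun_prop)
      continuous_const).mem_nhds hqr), ball_mem_nhds (0 : ℝ) one_pos] with t h1 h2
    refine ex_closure_memL hr hc (c3 t ?_) h1
    simpa using (mem_ball.1 h2).le
  · -- rotation
    have h1u : (1 : ℂ) - u ≠ 0 := sub_ne_zero.2 (Ne.symm hu1)
    set P : ℂ := (b - u * a) / (1 - u) with hP
    have hPfix : b + u * (P - a) = P := by rw [hP]; field_simp; ring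
    have hPD : P ∈ D := by
      by_contra hPD
      obtain ⟨f, hf⟩ := geometric_hahn_banach_point_open hDc hDo hPD
      -- orbit of `a`
      have horb : ∀ k : ℕ, P + u ^ k * (a - P) ∈ D := by
        intro k
        induction k with
        | zero => simpa using ha
        | succ k ih =>
          have := (m1 _ ih).1
          convert this using 1
          rw [pow_succ]
          linear_combination (-1 : ℂ) * hPfix
      have hpos : ∀ k : ℕ, 0 < f (u ^ k * (a - P)) := by
        intro k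
        have := hf _ (horb k)
        rw [map_add] at this
        linarith
      -- the partial sums are bounded
      have hsum : ∀ K : ℕ, ∑ k ∈ Finset.range K, f (u ^ k * (a - P)) ≤
          ‖f‖ * (2 / ‖1 - u‖ * ‖a - P‖) := by
        intro K
        rw [← map_sum, ← Finset.sum_mul]
        have h1 : (∑ k ∈ Finset.range K, u ^ k) = (1 - u ^ K) / (1 - u) := by
          rw [geom_sum_eq hu1, ← neg_div_neg_eq]; ring_nf
        rw [h1]
        refine (le_abs_self _).trans ((f.le_opNorm _).trans ?_)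
        gcongr
        rw [norm_mul, norm_div]
        gcongr
        calc ‖1 - u ^ K‖ ≤ ‖(1 : ℂ)‖ + ‖u ^ K‖ := norm_sub_le _ _
          _ = 2 := by rw [norm_pow, hun]; norm_num
      have hsummable : Summable fun k : ℕ => f (u ^ k * (a - P)) :=
        summable_of_sum_range_le (fun k => (hpos k).le) hsum
      have hlim := hsummable.tendsto_atTop_zero
      -- `f z = Re (w z)`
      have hfre : ∃ w : ℂ, ∀ z : ℂ, f z = (w * z).re := by
        refine ⟨(f 1 : ℂ) - (f Complex.I : ℂ) * Complex.I, fun z => ?_⟩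
        have hz : z = (z.re : ℝ) • (1 : ℂ) + (z.im : ℝ) • Complex.I := by
          rw [Complex.real_smul, Complex.real_smul, mul_one, Complex.re_add_im]
        conv_lhs => rw [hz, map_add, map_smul, map_smul]
        simp only [smul_eq_mul, Complex.mul_re, Complex.sub_re, Complex.sub_im, Complex.ofReal_re,
          Complex.ofReal_im, Complex.mul_im, Complex.I_re, Complex.I_im]
        ring
      obtain ⟨w, hw⟩ := hfre
      set ζ := w * (a - P) with hζ
      have hx : ∀ k : ℕ, f (u ^ k * (a - P)) = (u ^ k * ζ).re := by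
        intro k; rw [hw, hζ]; congr 1; ring
      have hx' : Tendsto (fun k : ℕ => (u ^ k * ζ).re) atTop (𝓝 0) := by
        simpa only [hx] using hlim
      have hx'' : Tendsto (fun k : ℕ => (u ^ (k + 1) * ζ).re) atTop (𝓝 0) :=
        (tendsto_add_atTop_iff_nat 1).2 hx'
      have hζ0 : ζ ≠ 0 := by
        intro h
        have := hpos 0
        rw [hx, h] at this; simp at this
      -- so `Im(u^k ζ) * Im u → 0`
      have e1 : ∀ k : ℕ, (u ^ (k + 1) * ζ).re = (u ^ k * ζ).re * u.re - (u ^ k * ζ).im * u.im := by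
        intro k
        have : u ^ (k + 1) * ζ = (u ^ k * ζ) * u := by ring
        rw [this, Complex.mul_re]
      have e2 : Tendsto (fun k : ℕ => (u ^ k * ζ).im * u.im) atTop (𝓝 0) := by
        have := (hx'.mul_const u.re).sub hx''
        simp only [zero_mul, sub_zero] at this
        refine this.congr fun k => ?_
        rw [e1]; ring
      have e3 : Tendsto (fun k : ℕ => (u ^ k * ζ).re ^ 2 * u.im ^ 2 +
          ((u ^ k * ζ).im * u.im) ^ 2) atTop (𝓝 0) := by
        have := ((hx'.pow 2).mul_const (u.im ^ 2)).add (e2.pow 2)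
        simpa using this
      have e4 : ∀ k : ℕ, (u ^ k * ζ).re ^ 2 * u.im ^ 2 + ((u ^ k * ζ).im * u.im) ^ 2 =
          ‖ζ‖ ^ 2 * u.im ^ 2 := by
        intro k
        have h1 : ‖u ^ k * ζ‖ ^ 2 = ‖ζ‖ ^ 2 := by rw [norm_mul, norm_pow, hun]; simp
        rw [← Complex.normSq_eq_norm_sq, Complex.normSq_apply] at h1
        nlinarith
      simp only [e4] at e3
      have e5 : ‖ζ‖ ^ 2 * u.im ^ 2 = 0 := tendsto_nhds_unique tendsto_const_nhds e3
      have e6 : u.im = 0 := by
        rcases mul_eq_zero.1 e5 with h | h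
        · exact absurd (norm_eq_zero.1 (by simpa using h)) hζ0
        · simpa using h
      have e7 : u.re ^ 2 = 1 := by
        have := Complex.sq_norm u
        rw [hun, Complex.normSq_apply, e6] at this
        nlinarith
      have e8 : u = -1 := by
        have h1 : u.re = 1 ∨ u.re = -1 := by
          have : (u.re - 1) * (u.re + 1) = 0 := by nlinarith
          rcases mul_eq_zero.1 this with h | h
          · left; linarith
          · right; linarith
        rcases h1 with h | h
        · exact absurd (Complex.ext (by simpa using h) (by simpa using e6)) hu1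
        · exact Complex.ext (by simpa using h) (by simpa using e6)
      have p0 := hpos 0
      have p1 := hpos 1
      rw [e8] at p0 p1
      simp only [pow_zero, one_mul, pow_one, neg_mul, map_neg] at p0 p1
      linarith
    -- `ext` is not injective near the fixed point
    obtain ⟨c, hc, ε, hε, h⟩ := ext_flat hPD
    obtain ⟨ε', hε', hi⟩ := T.inj _ (ext_memL hPD)
    set t : ℝ := min ε ε' / 2 with ht
    have ht0 : 0 < t := by have := lt_min hε hε'; positivity
    have ht1 : t < ε := by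
      have := min_le_left ε ε'; have := lt_min hε hε'; linarith
    have ht2 : t < ε' := by
      have := min_le_right ε ε'; have := lt_min hε hε'; linarith
    have k1 := h t (by rw [Complex.norm_real, Real.norm_of_nonneg ht0.le]; exact ht1)
    have k2 := h (u * t) (by
      rw [norm_mul, hun, one_mul, Complex.norm_real, Real.norm_of_nonneg ht0.le]; exact ht1)
    -- the point `P + t` is in `D`? use a smaller neighbourhood
    have hnb : ∀ᶠ s : ℝ in 𝓝[>] 0, P + s ∈ D ∧ s < ε ∧ s < ε' := by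
      have c4 : Tendsto (fun s : ℝ => P + (s : ℂ)) (𝓝 0) (𝓝 P) := by
        have : Continuous fun s : ℝ => P + (s : ℂ) := by fun_prop
        simpa using this.tendsto 0
      refine Filter.Eventually.and ?_ (Filter.Eventually.and ?_ ?_)
      · exact mem_nhdsWithin_of_mem_nhds (c4.eventually (hDo.mem_nhds hPD))
      · exact mem_nhdsWithin_of_mem_nhds (gt_mem_nhds hε)
      · exact mem_nhdsWithin_of_mem_nhds (gt_mem_nhds hε')
    obtain ⟨s, ⟨hs1, hs2, hs3⟩, hs0⟩ := (hnb.and self_mem_nhdsWithin).exists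
    have hs0 : (0 : ℝ) < s := hs0
    have j1 := (m1 (P + s) hs1).2
    have j2 : b + u * (P + s - a) = P + u * s := by
      have : b + u * (P + s - a) = (b + u * (P - a)) + u * s := by ring
      rw [this, hPfix]
    rw [j2] at j1
    have j3 := h s (by rw [Complex.norm_real, Real.norm_of_nonneg hs0.le]; exact hs2)
    have j4 := h (u * s) (by
      rw [norm_mul, hun, one_mul, Complex.norm_real, Real.norm_of_nonneg hs0.le]; exact hs2)
    rw [j3, j4] at j1
    have j5 := hi (by
      rw [mem_ball, dist_zero_right, norm_mul, norm_mul, hc, hun, one_mul, one_mul,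
        Complex.norm_real, Real.norm_of_nonneg hs0.le]; exact hs3) (by
      rw [mem_ball, dist_zero_right, norm_mul, hc, one_mul, Complex.norm_real,
        Real.norm_of_nonneg hs0.le]; exact hs3) j1
    have hc0 : c ≠ 0 := by rintro rfl; simp at hc
    have hsc : (s : ℂ) ≠ 0 := by exact_mod_cast hs0.ne'
    have j6 := mul_left_cancel₀ hc0 j5
    have j7 : u = 1 := by
      have : u * s = 1 * s := by rw [j6, one_mul]
      exact mul_right_cancel₀ hsc this
    exact hu1 j7

/-! ### the image -/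

/-- near an interior point `y`: if `F y b` is in the image, so is `y` -/
theorem mem_image_of_near {y : S} (hy : y ∈ T.L) (hyB : y ∉ T.B) :
    ∃ ε > 0, ∀ b : ℂ, ‖b‖ < ε → T.F y b ∈ T.ext σ₀ p '' T.Dom σ₀ p →
      y ∈ T.ext σ₀ p '' T.Dom σ₀ p := by
  obtain ⟨ε, hε, hint⟩ := T.interior y hy hyB
  refine ⟨min ε T.δ, lt_min hε T.δ_pos, fun b hb => ?_⟩
  rintro ⟨a, ha, hab⟩
  have hb1 : ‖b‖ < ε := hb.trans_le (min_le_left _ _)
  have hb2 : ‖b‖ < T.δ := hb.trans_le (min_le_right _ _)
  obtain ⟨ca, hca, εa, hεa, h⟩ := ext_flat ha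
  obtain ⟨c₁, hc₁, h₁⟩ := T.compat y hy b hb2 (hint b hb1).1
  set c := c₁ * ca with hc
  have hcn : ‖c‖ = 1 := by rw [hc, norm_mul, hc₁, hca, one_mul]
  have hc0 : c ≠ 0 := by intro h; rw [h] at hcn; simp at hcn
  set a' : ℂ := a - b / c with ha'
  have haa' : ‖a - a'‖ = ‖b‖ := by
    rw [ha', sub_sub_cancel, norm_div, hcn, div_one]
  -- the flat map
  have hok : T.Ok (T.ex y c a') (ball a' (min ε T.δ)) := by
    refine ⟨isOpen_ball, convex_ball _ _, fun z hz => ?_, fun z hz => ?_, fun z hz => ?_⟩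
    · rw [mem_ball, dist_eq_norm] at hz
      exact (hint _ (by rw [norm_mul, hcn, one_mul]; exact hz.trans_le (min_le_left _ _))).1
    · rw [mem_ball, dist_eq_norm] at hz
      exact (hint _ (by rw [norm_mul, hcn, one_mul]; exact hz.trans_le (min_le_left _ _))).2
    · rw [mem_ball, dist_eq_norm] at hz
      exact ex_flat hy hcn (hz.trans_le (min_le_right _ _))
        (hint _ (by rw [norm_mul, hcn, one_mul]; exact hz.trans_le (min_le_left _ _))).1
  have haU : a ∈ ball a' (min ε T.δ) := by rw [mem_ball, dist_eq_norm, haa']; exact hb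
  have hgerm : T.ex y c a' =ᶠ[𝓝 a] T.ext σ₀ p := by
    rw [Filter.EventuallyEq, Metric.eventually_nhds_iff]
    refine ⟨min εa (T.δ - ‖b‖), lt_min hεa (sub_pos.2 hb2), fun x hx => ?_⟩
    rw [dist_eq_norm] at hx
    have hx1 : ‖x - a‖ < εa := hx.trans_le (min_le_left _ _)
    have hx2 : ‖x - a‖ < T.δ - ‖b‖ := hx.trans_le (min_le_right _ _)
    have e1 := h (x - a) hx1
    rw [add_sub_cancel] at e1
    have e2 := h₁ (ca * (x - a)) (by
      rw [norm_mul, hca, one_mul]; linarith [norm_nonneg b]) (by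
      calc ‖b + c₁ * (ca * (x - a))‖ ≤ ‖b‖ + ‖c₁ * (ca * (x - a))‖ := norm_add_le _ _
        _ = ‖b‖ + ‖x - a‖ := by rw [norm_mul, norm_mul, hc₁, hca, one_mul, one_mul]
        _ < T.δ := by linarith)
    rw [e1, hab, e2]
    show T.F y (c * (x - a')) = T.F y (b + c₁ * (ca * (x - a)))
    congr 1
    rw [ha', hc]
    have e : (c₁ * ca) * (b / (c₁ * ca)) = b := mul_div_cancel₀ b hc0
    linear_combination e
  obtain ⟨h2, h3⟩ := maximal hok ha haU hgerm
  have hself : a' ∈ ball a' (min ε T.δ) := mem_ball_self (lt_min hε T.δ_pos)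
  exact ⟨a', h2 hself, by rw [← h3 hself]; exact ex_self hy c a'⟩

end Flat

end Vale.Agent.P267.H770
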